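import Mathlib

namespace Vale.Agent.Lib.P048

open SimpleGraph

variable {V : Type*} {G : SimpleGraph V}

/-- A periodic sequence of vertices running around a cycle of length `ℓ`. -/
structure CycSeq (G : SimpleGraph V) (ℓ : ℕ) (c : ℕ → V) : Prop where
  period : ∀ i, c (i + ℓ) = c i
  adj : ∀ i, G.Adj (c i) (c (i + 1))
  inj : ∀ i < ℓ, ∀ j < ℓ, c i = c j → i = j

lemma CycSeq.mod {ℓ : ℕ} {c : ℕ → V} (h : CycSeq G ℓ c) (i : ℕ) : c (i % ℓ) = c i := by
  induction i using Nat.strong_induction_on with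
  | _ i ih =>
    by_cases hi : i < ℓ
    · rw [Nat.mod_eq_of_lt hi]
    · have hle : ℓ ≤ i := not_lt.1 hi
      rcases Nat.eq_zero_or_pos ℓ with h0 | hpos
      · subst h0
        simp
      · have h1 : (i - ℓ) % ℓ = i % ℓ := by
          conv_rhs => rw [← Nat.sub_add_cancel hle]
          simp
        rw [← h1, ih (i - ℓ) (by omega)]
        have := h.period (i - ℓ)
        rw [Nat.sub_add_cancel hle] at this
        exact this.symm

lemma CycSeq.eq_mod {ℓ : ℕ} {c : ℕ → V} (h : CycSeq G ℓ c) (hℓ : 0 < ℓ) {i j : ℕ}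
    (hij : c i = c j) : i % ℓ = j % ℓ := by
  apply h.inj _ (Nat.mod_lt _ hℓ) _ (Nat.mod_lt _ hℓ)
  rw [h.mod, h.mod, hij]

/-- A cyclic sequence of length at least three gives a cycle of that length. -/
theorem CycSeq.exists_cycle {ℓ : ℕ} {c : ℕ → V} (h : CycSeq G ℓ c) (hℓ : 3 ≤ ℓ) :
    ∃ (v : V) (p : G.Walk v v), p.IsCycle ∧ p.length = ℓ := by
  rw [← cycleGraph_isContained_iff (by omega)]
  have key : ∀ u v : Fin ℓ, ((v - u : Fin ℓ) : ℕ) = 1 → G.Adj (c u) (c v) := by
    intro u v huv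
    rw [Fin.val_sub] at huv
    have hu := u.isLt
    have hv := v.isLt
    have h1 : (v : ℕ) = ((u : ℕ) + 1) % ℓ := by
      by_cases hvu : (u : ℕ) < v
      · have e : ℓ - (u : ℕ) + v = (v - u) + ℓ := by omega
        rw [e, Nat.add_mod_right, Nat.mod_eq_of_lt (by omega)] at huv
        rw [Nat.mod_eq_of_lt (by omega)]
        omega
      · by_cases hvu' : (u : ℕ) = v
        · have e : ℓ - (u : ℕ) + v = ℓ := by omega
          rw [e, Nat.mod_self] at huv
          omega
        · have hlt : ℓ - (u : ℕ) + v < ℓ := by omega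
          rw [Nat.mod_eq_of_lt hlt] at huv
          have e : (u : ℕ) + 1 = ℓ := by omega
          rw [e, Nat.mod_self]
          omega
    rw [h1, h.mod]
    exact h.adj u
  refine ⟨⟨⟨fun u => c u, ?_⟩, ?_⟩⟩
  · intro u v huv
    rcases cycleGraph_adj'.1 huv with h1 | h1
    · exact (key v u h1).symm
    · exact key u v h1
  · intro u v huv
    exact Fin.ext (h.inj _ u.isLt _ v.isLt huv)

/-- A cycle gives a cyclic sequence of the same length. -/
theorem exists_cycSeq_of_cycle {v : V} (p : G.Walk v v) (hp : p.IsCycle) :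
    ∃ c : ℕ → V, CycSeq G p.length c := by
  have h3 := hp.three_le_length
  refine ⟨fun i => p.getVert (i % p.length), ?_, ?_, ?_⟩
  · intro i
    simp
  · intro i
    have hr : i % p.length < p.length := Nat.mod_lt _ (by omega)
    have hadj := p.adj_getVert_succ hr
    by_cases hlt : i % p.length + 1 < p.length
    · have e : (i + 1) % p.length = i % p.length + 1 := by
        rw [Nat.add_mod, Nat.mod_eq_of_lt (by omega : 1 < p.length), Nat.mod_eq_of_lt hlt]
      simp only [e]
      exact hadj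
    · have e1 : i % p.length + 1 = p.length := by omega
      have e : (i + 1) % p.length = 0 := by
        rw [Nat.add_mod, Nat.mod_eq_of_lt (by omega : 1 < p.length), e1, Nat.mod_self]
      simp only [e]
      rw [e1, p.getVert_length] at hadj
      rw [p.getVert_zero]
      exact hadj
  · intro i hi j hj hij
    simp only [Nat.mod_eq_of_lt hi, Nat.mod_eq_of_lt hj] at hij
    exact hp.getVert_injOn' (by simp only [Set.mem_ofPred_eq]; omega)
      (by simp only [Set.mem_ofPred_eq]; omega) hij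

/-- In a graph with no independent set of size `n`, any `n` distinct vertices contain an
adjacent pair. -/
lemma exists_adj_of_injective {n : ℕ} (hfree : ∀ s : Finset V, ¬ G.IsNIndepSet n s)
    (x : Fin n → V) (hx : Function.Injective x) :
    ∃ a b : Fin n, a < b ∧ G.Adj (x a) (x b) := by
  classical
  by_contra hcon
  push Not at hcon
  apply hfree (Finset.univ.image x)
  refine ⟨?_, ?_⟩
  · intro u hu w hw huw hadj
    simp only [Finset.coe_image, Finset.coe_univ, Set.image_univ, Set.mem_range] at hu hw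
    obtain ⟨a, rfl⟩ := hu
    obtain ⟨b, rfl⟩ := hw
    have hab : a ≠ b := fun hab => huw (by rw [hab])
    rcases lt_or_gt_of_ne hab with hlt | hgt
    · exact hcon a b hlt hadj
    · exact hcon b a hgt hadj.symm
  · rw [Finset.card_image_of_injective _ hx]
    simp

/-- Shortening: in a graph with no independent set of size `n`, a cycle of length `ℓ ≥ 2n`
yields a cycle of length between `ℓ - 2n + 3` and `ℓ - 1`. -/
theorem CycSeq.shorten {n ℓ : ℕ} {c : ℕ → V} (hfree : ∀ s : Finset V, ¬ G.IsNIndepSet n s)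
    (h : CycSeq G ℓ c) (hℓ : 2 * n ≤ ℓ) :
    ∃ (ℓ' : ℕ) (c' : ℕ → V), CycSeq G ℓ' c' ∧ ℓ + 3 ≤ ℓ' + 2 * n ∧ ℓ' + 1 ≤ ℓ := by
  have hinj : Function.Injective (fun a : Fin n => c (2 * (a : ℕ))) := by
    intro a b hab
    have := h.inj (2 * (a : ℕ)) (by omega) (2 * (b : ℕ)) (by omega) hab
    exact Fin.ext (by omega)
  obtain ⟨a, b, hab, hadj⟩ := exists_adj_of_injective hfree _ hinj
  have ha := a.isLt
  have hb := b.isLt
  have hab' : (a : ℕ) < b := hab
  set ℓ' := ℓ - (2 * (b : ℕ) - 2 * (a : ℕ)) + 1 with hℓ'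
  have hℓ'pos : 0 < ℓ' := by omega
  refine ⟨ℓ', fun i => c (2 * (b : ℕ) + i % ℓ'), ⟨?_, ?_, ?_⟩, by omega, by omega⟩
  · intro i
    simp
  · intro i
    have hr : i % ℓ' < ℓ' := Nat.mod_lt _ hℓ'pos
    by_cases hlt : i % ℓ' + 1 < ℓ'
    · have e : (i + 1) % ℓ' = i % ℓ' + 1 := by
        rw [Nat.add_mod, Nat.mod_eq_of_lt (by omega : 1 < ℓ'), Nat.mod_eq_of_lt hlt]
      simp only [e]
      exact h.adj _
    · have e1 : i % ℓ' + 1 = ℓ' := by omega
      have e : (i + 1) % ℓ' = 0 := by
        have h1 : 1 < ℓ' := by omega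
        rw [Nat.add_mod, Nat.mod_eq_of_lt h1, e1, Nat.mod_self]
      simp only [e, add_zero]
      have e2 : 2 * (b : ℕ) + i % ℓ' = 2 * (a : ℕ) + ℓ := by omega
      rw [e2, h.period]
      exact hadj
  · intro i hi j hj hij
    simp only [Nat.mod_eq_of_lt hi, Nat.mod_eq_of_lt hj] at hij
    have hmod := h.eq_mod (by omega) hij
    by_contra hne
    rcases lt_or_gt_of_ne hne with hlt | hgt
    · have hdvd : ℓ ∣ (2 * (b : ℕ) + j) - (2 * (b : ℕ) + i) :=
        (Nat.modEq_iff_dvd' (by omega)).1 hmod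
      have := Nat.eq_zero_of_dvd_of_lt hdvd (by omega)
      omega
    · have hdvd : ℓ ∣ (2 * (b : ℕ) + i) - (2 * (b : ℕ) + j) :=
        (Nat.modEq_iff_dvd' (by omega)).1 hmod.symm
      have := Nat.eq_zero_of_dvd_of_lt hdvd (by omega)
      omega

end Vale.Agent.Lib.P048
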