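import Mathlib

namespace Vale.Agent.Lib.P048

open SimpleGraph

variable {V : Type*} {G : SimpleGraph V}

/-- In a path of length at least two, the edge joining its two ends is not an edge of the
path. -/
lemma not_mem_edges_of_isPath {u x : V} (q : G.Walk u x) (hq : q.IsPath) (hlen : 2 ≤ q.length) :
    s(x, u) ∉ q.edges := by
  cases q with
  | nil => simp at hlen
  | cons hadj q' =>
    rename_i y
    intro hmem
    rw [Walk.edges_cons, List.mem_cons] at hmem
    have hq' : q'.IsPath := hq.of_cons
    have hu : u ∉ q'.support := by
      have := hq.support_nodup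
      rw [Walk.support_cons, List.nodup_cons] at this
      exact this.1
    rcases hmem with h1 | h1
    · have hxy : x = y := by
        rcases Sym2.eq_iff.1 h1 with ⟨h2, _⟩ | ⟨h2, _⟩
        · exact absurd (h2 ▸ q'.end_mem_support) hu
        · exact h2
      subst hxy
      have hnil : q'.Nil := Walk.isPath_iff_nil.1 hq'
      have : q'.length = 0 := Walk.length_eq_zero_iff.2 hnil
      simp only [Walk.length_cons] at hlen
      omega
    · exact hu (q'.snd_mem_support_of_mem_edges h1)

/-- A graph with minimum degree at least `k ≥ 2` contains a cycle of length at least `k + 1`. -/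
theorem exists_cycle_of_minDegree [Fintype V] [DecidableRel G.Adj] [Nonempty V] (k : ℕ)
    (hk : 2 ≤ k) (hδ : ∀ v, k ≤ G.degree v) :
    ∃ (v : V) (p : G.Walk v v), p.IsCycle ∧ k + 1 ≤ p.length := by
  classical
  -- a longest path
  let P : ℕ → Prop := fun L => ∃ (u w : V) (p : G.Walk u w), p.IsPath ∧ p.length = L
  have hP0 : P 0 := ⟨Classical.arbitrary V, _, Walk.nil, Walk.IsPath.nil, rfl⟩
  have hPL := Nat.findGreatest_spec (P := P) (Nat.zero_le (Fintype.card V)) hP0
  obtain ⟨u, w, p, hp, hlen⟩ := hPL
  have hmax : ∀ (u' w' : V) (p' : G.Walk u' w'), p'.IsPath → p'.length ≤ p.length := by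
    intro u' w' p' hp'
    by_contra hgt
    rw [not_le, hlen] at hgt
    exact Nat.findGreatest_is_greatest (P := P) hgt hp'.length_lt.le ⟨u', w', p', hp', rfl⟩
  -- all neighbours of `u` lie on the path
  have hnbr : ∀ x, G.Adj u x → x ∈ p.support := by
    intro x hx
    by_contra hnot
    have hcons : (Walk.cons hx.symm p).IsPath := hp.cons hnot
    have := hmax _ _ _ hcons
    simp at this
  -- positions of the neighbours
  let pos : V → ℕ := fun x => if hx : x ∈ p.support then (p.takeUntil x hx).length else 0
  have hpos_inj : Set.InjOn pos (G.neighborFinset u : Set V) := by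
    intro x hx y hy hxy
    have hx' : x ∈ p.support := hnbr x (by simpa using hx)
    have hy' : y ∈ p.support := hnbr y (by simpa using hy)
    simp only [pos, dif_pos hx', dif_pos hy'] at hxy
    have h1 := Walk.getVert_length_takeUntil hx'
    have h2 := Walk.getVert_length_takeUntil hy'
    rw [hxy] at h1
    exact h1.symm.trans h2
  have hcard : k ≤ ((G.neighborFinset u).image pos).card := by
    rw [Finset.card_image_of_injOn hpos_inj, G.card_neighborFinset_eq_degree]
    exact hδ u
  -- some neighbour is at position at least `k`
  have hex : ∃ x ∈ G.neighborFinset u, k ≤ pos x := by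
    by_contra hcon
    push Not at hcon
    have hsub : (G.neighborFinset u).image pos ⊆ Finset.Icc 1 (k - 1) := by
      intro i hi
      obtain ⟨x, hx, rfl⟩ := Finset.mem_image.1 hi
      have hlt := hcon x hx
      have hx' : x ∈ p.support := hnbr x (by simpa using hx)
      have hxu : x ≠ u := by
        have : G.Adj u x := by simpa using hx
        exact this.ne'
      have hpos1 : 1 ≤ pos x := by
        simp only [pos, dif_pos hx']
        by_contra h0
        have h0' : (p.takeUntil x hx').length = 0 := by omega
        have := Walk.getVert_length_takeUntil hx'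
        rw [h0', Walk.getVert_zero] at this
        exact hxu this.symm
      rw [Finset.mem_Icc]
      omega
    have := Finset.card_le_card hsub
    simp at this
    omega
  obtain ⟨x, hx, hkx⟩ := hex
  have hx' : x ∈ p.support := hnbr x (by simpa using hx)
  have hadj : G.Adj u x := by simpa using hx
  simp only [pos, dif_pos hx'] at hkx
  have hq : (p.takeUntil x hx').IsPath := hp.takeUntil hx'
  refine ⟨x, Walk.cons hadj.symm (p.takeUntil x hx'), ?_, ?_⟩
  · rw [Walk.cons_isCycle_iff]
    exact ⟨hq, not_mem_edges_of_isPath _ hq (by omega)⟩
  · simp only [Walk.length_cons]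
    omega

end Vale.Agent.Lib.P048
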