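import Mathlib

namespace Vale.Agent.Lib.P048

open SimpleGraph

/-- A copy of the cycle `C_m` in the disjoint sum of `G` with a complete graph on `m - 1`
vertices lies in `G`. -/
theorem cycle_sum_top {V : Type*} (G : SimpleGraph V) (m : ℕ)
    (h : cycleGraph m ⊑ (G ⊕g (⊤ : SimpleGraph (Fin (m - 1))))) : cycleGraph m ⊑ G := by
  obtain ⟨f⟩ := h
  rcases m with _ | k
  · exact IsContained.of_isEmpty
  have hconn : (cycleGraph (k + 1)).Connected := cycleGraph_connected
  have hreach : ∀ i : Fin (k + 1),
      (G ⊕g (⊤ : SimpleGraph (Fin (k + 1 - 1)))).Reachable (f 0) (f i) :=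
    fun i => (hconn.preconnected 0 i).map f.toHom
  rcases h0 : f 0 with a | b
  · have hall : ∀ i : Fin (k + 1), ∃ c : V, f i = Sum.inl c := by
      intro i
      rcases hi : f i with c | c
      · exact ⟨c, rfl⟩
      · exfalso
        have := hreach i
        rw [h0, hi] at this
        exact not_reachable_sum_inl_inr _ _ this
    choose g hg using hall
    refine ⟨⟨⟨g, ?_⟩, ?_⟩⟩
    · intro i j hij
      have := f.toHom.map_adj hij
      change (G ⊕g _).Adj (f i) (f j) at this
      rw [hg i, hg j] at this
      simpa using this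
    · intro i j hij
      apply f.injective
      change f i = f j
      rw [hg i, hg j]
      exact congrArg _ hij
  · exfalso
    have hall : ∀ i : Fin (k + 1), ∃ c : Fin (k + 1 - 1), f i = Sum.inr c := by
      intro i
      rcases hi : f i with c | c
      · exfalso
        have := (hreach i).symm
        rw [h0, hi] at this
        exact not_reachable_sum_inl_inr _ _ this
      · exact ⟨c, rfl⟩
    choose g hg using hall
    have hinj : Function.Injective g := by
      intro i j hij
      apply f.injective
      change f i = f j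
      rw [hg i, hg j]
      exact congrArg _ hij
    have := Fintype.card_le_of_injective g hinj
    simp at this

/-- An independent set of size `n + 1` in the disjoint sum of `G` with a complete graph gives
an independent set of size `n` in `G`. -/
theorem indep_sum_top {V W : Type*} (G : SimpleGraph V) (n : ℕ)
    (s : Finset (V ⊕ W)) (hs : (G ⊕g (⊤ : SimpleGraph W)).IsNIndepSet (n + 1) s) :
    ∃ t : Finset V, G.IsNIndepSet n t := by
  classical
  obtain ⟨hind, hcard⟩ := hs
  have hright : (s.toRight).card ≤ 1 := by
    rw [Finset.card_le_one]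
    intro a ha b hb
    by_contra hab
    have ha' : Sum.inr a ∈ s := by simpa using ha
    have hb' : Sum.inr b ∈ s := by simpa using hb
    have := hind ha' hb' (by simpa using hab)
    exact this (by simpa using hab)
  have hsplit : s.toLeft.card + s.toRight.card = s.card := Finset.card_toLeft_add_card_toRight
  have hleft : n ≤ s.toLeft.card := by omega
  obtain ⟨t, hts, htc⟩ := Finset.exists_subset_card_eq hleft
  refine ⟨t, ?_, htc⟩
  intro a ha b hb hab
  have ha' : Sum.inl a ∈ s := by simpa using hts ha
  have hb' : Sum.inl b ∈ s := by simpa using hts hb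
  have := hind ha' hb' (by simpa using hab)
  simpa using this

/-- If every graph on `N + (m - 1)` vertices has a cycle of length `m` or an independent set of
size `n + 1`, then every graph on `N` vertices has a cycle of length `m` or an independent set
of size `n`. -/
theorem arrow_descend (m n N : ℕ)
    (h : ∀ G : SimpleGraph (Fin (N + (m - 1))),
      (∃ (v : Fin (N + (m - 1))) (p : G.Walk v v), p.IsCycle ∧ p.length = m) ∨
        ∃ s : Finset (Fin (N + (m - 1))), G.IsNIndepSet (n + 1) s)
    (G : SimpleGraph (Fin N)) :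
    (∃ (v : Fin N) (p : G.Walk v v), p.IsCycle ∧ p.length = m) ∨
      ∃ s : Finset (Fin N), G.IsNIndepSet n s := by
  classical
  set G' : SimpleGraph (Fin N ⊕ Fin (m - 1)) := G ⊕g (⊤ : SimpleGraph (Fin (m - 1))) with hG'
  set e : Fin N ⊕ Fin (m - 1) ≃ Fin (N + (m - 1)) := finSumFinEquiv with he
  have iso : G' ≃g G'.map e.toEmbedding := Iso.map e G'
  rcases h (G'.map e.toEmbedding) with ⟨v, p, hp, hlen⟩ | ⟨s, hs⟩
  · left
    have hm : 2 < m := by
      have := hp.three_le_length
      omega
    have h1 : cycleGraph m ⊑ G'.map e.toEmbedding :=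
      (cycleGraph_isContained_iff hm).2 ⟨v, p, hp, hlen⟩
    have h2 : cycleGraph m ⊑ G' := (isContained_congr_right iso).2 h1
    exact (cycleGraph_isContained_iff hm).1 (cycle_sum_top G m h2)
  · right
    have hs' : G'.IsNIndepSet (n + 1) (s.map e.symm.toEmbedding) := by
      refine ⟨?_, by simpa using hs.card_eq⟩
      intro a ha b hb hab hadj
      simp only [Finset.coe_map, Equiv.coe_toEmbedding, Set.mem_image, Finset.mem_coe] at ha hb
      obtain ⟨x, hx, rfl⟩ := ha
      obtain ⟨y, hy, rfl⟩ := hb
      have hxy : x ≠ y := fun hxy => hab (by rw [hxy])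
      refine hs.isIndepSet hx hy hxy ?_
      rw [SimpleGraph.map_adj]
      exact ⟨e.symm x, e.symm y, hadj, by simp, by simp⟩
    exact indep_sum_top G n _ hs'

end Vale.Agent.Lib.P048

namespace Vale.Agent.Lib.P048

open SimpleGraph

/-- A graph on fewer than `m` vertices has no cycle of length `m`. -/
theorem no_cycle_of_card_lt {N m : ℕ} (hN : N < m) (G : SimpleGraph (Fin N)) :
    ¬ ∃ (v : Fin N) (p : G.Walk v v), p.IsCycle ∧ p.length = m := by
  rintro ⟨v, p, hp, hlen⟩
  have hm : 2 < m := by
    have := hp.three_le_length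
    omega
  obtain ⟨f⟩ := (cycleGraph_isContained_iff hm).2 ⟨v, p, hp, hlen⟩
  have := Fintype.card_le_of_injective f f.injective
  simp at this
  omega

/-- The step inequality for the least `N` with the Ramsey property. -/
theorem ramsey_step (m n R R' : ℕ) (hn : 1 ≤ n)
    (hR : IsLeast {N : ℕ | ∀ G : SimpleGraph (Fin N),
      (∃ (v : Fin N) (p : G.Walk v v), p.IsCycle ∧ p.length = m) ∨
        ∃ s : Finset (Fin N), G.IsNIndepSet n s} R)
    (hR' : IsLeast {N : ℕ | ∀ G : SimpleGraph (Fin N),
      (∃ (v : Fin N) (p : G.Walk v v), p.IsCycle ∧ p.length = m) ∨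
        ∃ s : Finset (Fin N), G.IsNIndepSet (n + 1) s} R') :
    R + (m - 1) ≤ R' := by
  by_contra hlt
  rw [not_le] at hlt
  by_cases hcase : m - 1 ≤ R'
  · obtain ⟨N, hN⟩ : ∃ N, R' = N + (m - 1) := ⟨R' - (m - 1), by omega⟩
    have h1 := hR'.1
    rw [hN] at h1
    have h2 : N ∈ {N : ℕ | ∀ G : SimpleGraph (Fin N),
      (∃ (v : Fin N) (p : G.Walk v v), p.IsCycle ∧ p.length = m) ∨
        ∃ s : Finset (Fin N), G.IsNIndepSet n s} := fun G => arrow_descend m n N h1 G
    have := hR.2 h2
    omega
  · rw [not_le] at hcase
    rcases hR'.1 (⊤ : SimpleGraph (Fin R')) with hc | ⟨s, hs⟩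
    · exact no_cycle_of_card_lt (by omega) _ hc
    · have hcard : 1 < s.card := by
        rw [hs.card_eq]
        omega
      obtain ⟨a, ha, b, hb, hab⟩ := Finset.one_lt_card.1 hcard
      exact hs.isIndepSet ha hb hab (by simpa using hab)

end Vale.Agent.Lib.P048
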