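import Vale.Agent.Lib.P048.CycSeq
import Vale.Agent.Lib.P048.Dirac

namespace Vale.Agent.Lib.P048

open SimpleGraph

universe u

/-- base case: a graph with no two nonadjacent vertices on at least `m` vertices contains `C_m` -/
lemma window_base (m : ℕ) (hm : 3 ≤ m) {V : Type u} [Fintype V] (G : SimpleGraph V)
    (hcard : m ≤ Fintype.card V) (hfree : ∀ s : Finset V, ¬ G.IsNIndepSet 2 s) :
    ∃ (v : V) (p : G.Walk v v), p.IsCycle ∧ p.length = m := by
  classical
  have hadj : ∀ x y : V, x ≠ y → G.Adj x y := by
    intro x y hxy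
    by_contra hnot
    apply hfree {x, y}
    refine ⟨?_, Finset.card_pair hxy⟩
    intro a ha b hb hab
    simp only [Finset.coe_insert, Finset.coe_singleton, Set.mem_insert_iff,
      Set.mem_singleton_iff] at ha hb
    rcases ha with rfl | rfl <;> rcases hb with rfl | rfl
    · exact absurd rfl hab
    · exact hnot
    · exact fun h => hnot h.symm
    · exact absurd rfl hab
  obtain ⟨f⟩ : Nonempty (Fin m ↪ V) :=
    Function.Embedding.nonempty_of_card_le (by simpa using hcard)
  have hmpos : 0 < m := by omega
  have hcyc : CycSeq G m (fun i => f ⟨i % m, Nat.mod_lt _ hmpos⟩) := by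
    refine ⟨?_, ?_, ?_⟩
    · intro i
      simp
    · intro i
      apply hadj
      intro heq
      have h1 := Fin.mk.inj (f.injective heq)
      have h2 : (i + 1) % m = (i % m + 1) % m := by
        rw [Nat.add_mod, Nat.mod_eq_of_lt (by omega : 1 < m)]
      rw [h2] at h1
      by_cases hlt : i % m + 1 < m
      · rw [Nat.mod_eq_of_lt hlt] at h1
        omega
      · have : i % m + 1 = m := by
          have := Nat.mod_lt i hmpos
          omega
        rw [this, Nat.mod_self] at h1
        omega
    · intro i hi j hj hij
      have h1 := Fin.mk.inj (f.injective hij)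
      rwa [Nat.mod_eq_of_lt hi, Nat.mod_eq_of_lt hj] at h1
  exact hcyc.exists_cycle hm

/-- Every graph on at least `(m - 1) * (n - 1) + 1` vertices with no independent set of size `n`
contains a cycle whose length lies between `m` and `m + 2 * n - 4`. -/
theorem window (m : ℕ) (hm : 3 ≤ m) (n : ℕ) (hn : 2 ≤ n) :
    ∀ {V : Type u} [Fintype V] (G : SimpleGraph V),
      (m - 1) * (n - 1) + 1 ≤ Fintype.card V → (∀ s : Finset V, ¬ G.IsNIndepSet n s) →
      ∃ (v : V) (p : G.Walk v v), p.IsCycle ∧ m ≤ p.length ∧ p.length ≤ m + 2 * n - 4 := by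
  induction n, hn using Nat.le_induction with
  | base =>
    intro V _ G hcard hfree
    have hcard' : m ≤ Fintype.card V := by
      have : (m - 1) * (2 - 1) + 1 = m := by omega
      omega
    obtain ⟨v, p, hp, hlen⟩ := window_base m hm G hcard' hfree
    exact ⟨v, p, hp, by omega, by omega⟩
  | succ n hn ih =>
    intro V _ G hcard hfree
    classical
    by_cases hdeg : ∃ v, G.degree v ≤ m - 2
    · -- remove the closed neighbourhood of a vertex of small degree
      obtain ⟨v, hv⟩ := hdeg
      obtain ⟨T, hTcard, hTmem⟩ : ∃ T : Finset V, T.card = G.degree v + 1 ∧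
          ∀ x, x ∈ T ↔ x = v ∨ G.Adj v x := by
        refine ⟨insert v (G.neighborFinset v), ?_, ?_⟩
        · rw [Finset.card_insert_of_notMem (by simp), G.card_neighborFinset_eq_degree]
        · intro x
          simp
      let W := {x // x ∈ Tᶜ}
      let G' : SimpleGraph W := G.comap (Function.Embedding.subtype (fun x => x ∈ Tᶜ))
      have hWcard : (m - 1) * (n - 1) + 1 ≤ Fintype.card W := by
        have h1 : Fintype.card W = (Tᶜ).card := Fintype.card_coe _
        rw [h1, Finset.card_compl, hTcard]
        have h2 : (m - 1) * (n + 1 - 1) + 1 = (m - 1) * (n - 1) + 1 + (m - 1) := by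
          obtain ⟨k, rfl⟩ : ∃ k, n = k + 1 := ⟨n - 1, by omega⟩
          simp only [Nat.add_sub_cancel]
          ring
        omega
      have hfree' : ∀ s : Finset W, ¬ G'.IsNIndepSet n s := by
        intro s hs
        apply hfree (insert v (s.map (Function.Embedding.subtype (fun x => x ∈ Tᶜ))))
        refine ⟨?_, ?_⟩
        · have hnv : ∀ w : W, ¬ G.Adj v (w : V) ∧ (w : V) ≠ v := by
            intro w
            have hw := w.2
            rw [Finset.mem_compl, hTmem, not_or] at hw
            exact ⟨hw.2, hw.1⟩
          intro a ha b hb hab hadj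
          simp only [Finset.coe_insert, Finset.coe_map, Function.Embedding.subtype_apply,
            Set.mem_insert_iff, Set.mem_image, Finset.mem_coe] at ha hb
          rcases ha with rfl | ⟨a', ha', rfl⟩ <;> rcases hb with rfl | ⟨b', hb', rfl⟩
          · exact hab rfl
          · exact (hnv b').1 hadj
          · exact (hnv a').1 hadj.symm
          · have hne : a' ≠ b' := fun h => hab (by rw [h])
            exact hs.isIndepSet ha' hb' hne hadj
        · rw [Finset.card_insert_of_notMem, Finset.card_map, hs.card_eq]
          intro hmem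
          simp only [Finset.mem_map, Function.Embedding.subtype_apply] at hmem
          obtain ⟨w, _, hw⟩ := hmem
          have hw2 := w.2
          rw [Finset.mem_compl, hTmem, not_or] at hw2
          exact hw2.1 hw
      obtain ⟨w, p, hp, h1, h2⟩ := ih G' hWcard hfree'
      let φ : G' ↪g G := Embedding.comap (Function.Embedding.subtype (fun x => x ∈ Tᶜ)) G
      refine ⟨φ w, p.map φ.toHom, hp.map φ.injective, ?_, ?_⟩
      · rw [Walk.length_map]
        exact h1
      · rw [Walk.length_map]
        omega
    · -- minimum degree at least `m - 1`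
      have hδ : ∀ v, m - 1 ≤ G.degree v := by
        intro v
        by_contra hlt
        exact hdeg ⟨v, by omega⟩
      have hne : Nonempty V := by
        rw [← Fintype.card_pos_iff]
        omega
      obtain ⟨v0, p0, hp0, hlen0⟩ := exists_cycle_of_minDegree (G := G) (m - 1) (by omega) hδ
      let Q : ℕ → Prop := fun ℓ => m ≤ ℓ ∧ ∃ (v : V) (p : G.Walk v v), p.IsCycle ∧ p.length = ℓ
      have hQ : ∃ ℓ, Q ℓ := ⟨p0.length, by omega, v0, p0, hp0, rfl⟩
      obtain ⟨hmℓ, v, p, hp, hlen⟩ := Nat.find_spec hQ
      refine ⟨v, p, hp, by omega, ?_⟩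
      by_contra hbig
      rw [not_le] at hbig
      obtain ⟨c, hc⟩ := exists_cycSeq_of_cycle p hp
      obtain ⟨ℓ', c', hc', h1, h2⟩ := hc.shorten hfree (by omega)
      obtain ⟨v', p', hp', hlen'⟩ := hc'.exists_cycle (by omega)
      have hQ' : Q ℓ' := ⟨by omega, v', p', hp', hlen'⟩
      exact Nat.find_min hQ (by omega) hQ'

end Vale.Agent.Lib.P048
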